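import Vale.Agent.P143.Cayley

open MeasureTheory Vale.Agent.P143

universe u

/-- The free uniform spanning forest is a factor of IID:
(1) a `Γ`-factor of IID on every Cayley graph of every finitely generated group `Γ`;
(2) a graph factor of IID, with one Borel isomorphism-invariant rule `Φ` that works for every
connected locally finite graph on the vertex set `ℕ`. -/
theorem Vale.Agent.Results.P143.FactorOfIID.result :
    (∀ (Γ : Type u) [Group Γ] (S : Set Γ), S.Finite → Subgroup.closure S = ⊤ →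
      ∃ Φ : (Γ → unitInterval) → ((SimpleGraph.mulCayley S).edgeSet → Bool), Measurable Φ ∧
        (∀ (γ : Γ) (U : Γ → unitInterval) (g h : Γ)
            (he : s(g, h) ∈ (SimpleGraph.mulCayley S).edgeSet)
            (he' : s(γ * g, γ * h) ∈ (SimpleGraph.mulCayley S).edgeSet),
          Φ (fun v => U (γ⁻¹ * v)) ⟨s(γ * g, γ * h), he'⟩ = Φ U ⟨s(g, h), he⟩) ∧
        IsFUSF (SimpleGraph.mulCayley S) ((iidUniform Γ).map Φ)) ∧
    (∃ Φ : SimpleGraph ℕ → (ℕ → unitInterval) → Sym2 ℕ → Bool,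
      (∀ e, Measurable fun p : SimpleGraph ℕ × (ℕ → unitInterval) => Φ p.1 p.2 e) ∧
      (∀ (G G' : SimpleGraph ℕ) (φ : G ≃g G') (U : ℕ → unitInterval) (e : Sym2 ℕ),
        Φ G' (fun v => U (φ.symm v)) (e.map φ) = Φ G U e) ∧
      ∀ G : SimpleGraph ℕ, G.Connected → (∀ v, (G.neighborSet v).Finite) →
        IsFUSF G ((iidUniform ℕ).map fun U (e : G.edgeSet) => Φ G U e.1)) :=
  ⟨fun _ _ _ h1 h2 => cayley_factor h1 h2, graph_factor⟩
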